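import Mathlib

namespace Vale.Agent.Results.P038.Asymptotic

/-- `D u v` means that `u → v` is an arc. Oriented graph: no two opposite arcs (hence no loops). -/
def Oriented {V : Type} (D : V → V → Prop) : Prop := ∀ u v, D u v → ¬ D v u

/-- the first out-neighbourhood -/
def N1 {V : Type} (D : V → V → Prop) (v : V) : Set V := {u | D v u}

/-- the second out-neighbourhood -/
def N2 {V : Type} (D : V → V → Prop) (v : V) : Set V :=
  {w | w ≠ v ∧ w ∉ N1 D v ∧ ∃ u, D v u ∧ D u w}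

/-- Seymour's second neighbourhood conjecture (Q1) -/
def Seymour : Prop :=
  ∀ (V : Type) [Fintype V] [Nonempty V] (D : V → V → Prop), Oriented D →
    ∃ v, (N1 D v).ncard ≤ (N2 D v).ncard

/-- Additive asymptotic version: an error `ε n` is allowed and only large graphs all of whose
outdegrees are at least `k` are considered. -/
def Additive : Prop :=
  ∀ ε : ℝ, 0 < ε → ∃ k : ℕ, ∀ (V : Type) [Fintype V] [Nonempty V] (D : V → V → Prop), Oriented D →
    (∀ v, k ≤ (N1 D v).ncard) →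
    ∃ v, ((N1 D v).ncard : ℝ) ≤ (N2 D v).ncard + ε * Fintype.card V

/-- Multiplicative asymptotic version, only for graphs with large minimum outdegree. -/
def Multiplicative : Prop :=
  ∀ l : ℝ, l < 1 → ∃ k : ℕ, ∀ (V : Type) [Fintype V] [Nonempty V] (D : V → V → Prop), Oriented D →
    (∀ v, k ≤ (N1 D v).ncard) →
    ∃ v, l * (N1 D v).ncard ≤ (N2 D v).ncard

open Classical in
/-- Weighted version: positive real weights on the vertices. -/
def Weighted : Prop :=
  ∀ (V : Type) [Fintype V] [Nonempty V] (D : V → V → Prop) (w : V → ℝ), Oriented D →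
    (∀ v, 0 < w v) →
    ∃ v, ∑ u with u ∈ N1 D v, w u ≤ ∑ u with u ∈ N2 D v, w u

/-! ### Blow-ups -/

/-- replace the vertex `v` by `c v` independent copies -/
def blow {V : Type} (D : V → V → Prop) (c : V → ℕ) :
    (Σ v, Fin (c v)) → (Σ v, Fin (c v)) → Prop := fun x y => D x.1 y.1

theorem blow_oriented {V : Type} {D : V → V → Prop} (h : Oriented D) (c : V → ℕ) :
    Oriented (blow D c) := fun x y hxy => h x.1 y.1 hxy

theorem N1_blow {V : Type} (D : V → V → Prop) (c : V → ℕ) (x : Σ v, Fin (c v)) :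
    N1 (blow D c) x = Sigma.fst ⁻¹' (N1 D x.1) := rfl

theorem N2_blow {V : Type} {D : V → V → Prop} (h : Oriented D) (c : V → ℕ)
    (hc : ∀ v, 0 < c v) (x : Σ v, Fin (c v)) :
    N2 (blow D c) x = Sigma.fst ⁻¹' (N2 D x.1) := by
  ext y
  constructor
  · rintro ⟨_, h2, u, h3, h4⟩
    refine ⟨?_, h2, u.1, h3, h4⟩
    intro h5
    exact h x.1 u.1 h3 (by simpa [blow, h5] using h4)
  · rintro ⟨h1, h2, u, h3, h4⟩
    exact ⟨fun h5 => h1 (by rw [h5]), h2, ⟨u, ⟨0, hc u⟩⟩, h3, h4⟩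

open Classical in
theorem ncard_pre {V : Type} [Fintype V] (c : V → ℕ) (S : Set V) :
    (Sigma.fst ⁻¹' S : Set (Σ v, Fin (c v))).ncard = ∑ u with u ∈ S, c u := by
  have h : (Sigma.fst ⁻¹' S : Set (Σ v, Fin (c v))) =
      ((Finset.univ.filter (fun u => u ∈ S)).sigma (fun v => (Finset.univ : Finset (Fin (c v)))) :
        Finset (Σ v, Fin (c v))) := by
    ext x; simp
  rw [h, Set.ncard_coe_finset, Finset.card_sigma]
  simp

open Classical in
theorem ncard_eq {V : Type} [Fintype V] (S : Set V) : S.ncard = ∑ u with u ∈ S, 1 := by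
  have h : S = ((Finset.univ.filter (fun u => u ∈ S)) : Finset V) := by ext x; simp
  conv_lhs => rw [h]
  rw [Set.ncard_coe_finset]
  simp

/-- uniform blow-up -/
theorem ncard_pre_const {V : Type} [Fintype V] (m : ℕ) (S : Set V) :
    (Sigma.fst ⁻¹' S : Set (Σ _ : V, Fin m)).ncard = S.ncard * m := by
  classical
  rw [ncard_pre (fun _ => m) S, ncard_eq S]
  simp

/-- Key step: an asymptotic statement passes to all graphs. -/
theorem blow_step {V : Type} [Fintype V] [Nonempty V] {D : V → V → Prop} (h : Oriented D)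
    (hno : ∀ v, (N2 D v).ncard < (N1 D v).ncard) (k : ℕ) :
    ∃ m : ℕ, 0 < m ∧ ∀ x : Σ _ : V, Fin m, k ≤ (N1 (blow D fun _ => m) x).ncard := by
  refine ⟨k + 1, by omega, fun x => ?_⟩
  rw [N1_blow, ncard_pre_const]
  have h1 : 1 ≤ (N1 D x.1).ncard := by have := hno x.1; omega
  nlinarith

theorem seymour_of_additive (H : Additive) : Seymour := by
  intro V _ _ D hD
  by_contra hcon
  push Not at hcon
  have hn : (0 : ℝ) < Fintype.card V := by exact_mod_cast Fintype.card_pos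
  obtain ⟨k, hk⟩ := H (1 / (2 * Fintype.card V)) (by positivity)
  obtain ⟨m, hm, hdeg⟩ := blow_step hD hcon k
  haveI : Nonempty (Σ _ : V, Fin m) := ⟨⟨Classical.arbitrary V, ⟨0, hm⟩⟩⟩
  obtain ⟨x, hx⟩ := hk (Σ _ : V, Fin m) (blow D fun _ => m) (blow_oriented hD _) hdeg
  rw [N1_blow, N2_blow hD _ (fun _ => hm), ncard_pre_const, ncard_pre_const] at hx
  have hc : Fintype.card (Σ _ : V, Fin m) = Fintype.card V * m := by simp
  rw [hc] at hx
  push_cast at hx
  have h1 : ((N2 D x.1).ncard : ℝ) + 1 ≤ (N1 D x.1).ncard := by exact_mod_cast hcon x.1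
  have hm' : (0 : ℝ) < m := by exact_mod_cast hm
  have h2 : 1 / (2 * (Fintype.card V : ℝ)) * (Fintype.card V * m) = m / 2 := by
    field_simp
  rw [h2] at hx
  nlinarith

theorem seymour_of_multiplicative (H : Multiplicative) : Seymour := by
  intro V _ _ D hD
  by_contra hcon
  push Not at hcon
  have hn : (0 : ℝ) < Fintype.card V := by exact_mod_cast Fintype.card_pos
  obtain ⟨k, hk⟩ := H (1 - 1 / (2 * Fintype.card V)) (by
    have : (0 : ℝ) < 1 / (2 * Fintype.card V) := by positivity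
    linarith)
  obtain ⟨m, hm, hdeg⟩ := blow_step hD hcon k
  haveI : Nonempty (Σ _ : V, Fin m) := ⟨⟨Classical.arbitrary V, ⟨0, hm⟩⟩⟩
  obtain ⟨x, hx⟩ := hk (Σ _ : V, Fin m) (blow D fun _ => m) (blow_oriented hD _) hdeg
  rw [N1_blow, N2_blow hD _ (fun _ => hm), ncard_pre_const, ncard_pre_const] at hx
  push_cast at hx
  have h1 : ((N2 D x.1).ncard : ℝ) + 1 ≤ (N1 D x.1).ncard := by exact_mod_cast hcon x.1
  have hm' : (0 : ℝ) < m := by exact_mod_cast hm
  have h3 : ((N1 D x.1).ncard : ℝ) ≤ Fintype.card V := by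
    exact_mod_cast (Set.ncard_le_card (N1 D x.1)).trans (by simp)
  have h4 : 1 / (2 * (Fintype.card V : ℝ)) * (N1 D x.1).ncard ≤ 1 / 2 := by
    rw [div_mul_eq_mul_div, div_le_div_iff₀ (by positivity) (by norm_num)]
    linarith
  have h5 : (1 - 1 / (2 * (Fintype.card V : ℝ))) * (N1 D x.1).ncard ≤ (N2 D x.1).ncard := by
    by_contra h6
    push Not at h6
    have := mul_lt_mul_of_pos_right h6 hm'
    nlinarith
  nlinarith


open Classical in
theorem weighted_of_seymour (H : Seymour) : Weighted := by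
  intro V _ _ D w hD hw
  by_contra hcon
  push Not at hcon
  have hex : ∀ v, ∃ m : ℕ, (Fintype.card V : ℝ) <
      m * (∑ u with u ∈ N1 D v, w u - ∑ u with u ∈ N2 D v, w u) := by
    intro v
    have h1 : 0 < ∑ u with u ∈ N1 D v, w u - ∑ u with u ∈ N2 D v, w u := by
      have := hcon v; linarith
    obtain ⟨m, hm⟩ := exists_nat_gt ((Fintype.card V : ℝ) /
      (∑ u with u ∈ N1 D v, w u - ∑ u with u ∈ N2 D v, w u))
    exact ⟨m, (div_lt_iff₀ h1).1 hm⟩
  choose f hf using hex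
  set m : ℕ := ∑ v, f v + 1 with hm
  have hmf : ∀ v, f v ≤ m := fun v => by
    have := Finset.single_le_sum (f := f) (fun i _ => Nat.zero_le _) (Finset.mem_univ v)
    omega
  have hm0 : (0 : ℝ) < m := by rw [hm]; positivity
  have hc : ∀ v, 0 < ⌈(m : ℝ) * w v⌉₊ := fun v => Nat.ceil_pos.2 (mul_pos hm0 (hw v))
  haveI : Nonempty (Σ v : V, Fin ⌈(m : ℝ) * w v⌉₊) :=
    ⟨⟨Classical.arbitrary V, ⟨0, hc _⟩⟩⟩
  obtain ⟨x, hx⟩ := H (Σ v : V, Fin ⌈(m : ℝ) * w v⌉₊) (blow D fun v => ⌈(m : ℝ) * w v⌉₊)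
    (blow_oriented hD _)
  rw [N1_blow, N2_blow hD _ hc, ncard_pre, ncard_pre] at hx
  have hx' : (∑ u with u ∈ N1 D x.1, (⌈(m : ℝ) * w u⌉₊ : ℝ)) ≤
      ∑ u with u ∈ N2 D x.1, (⌈(m : ℝ) * w u⌉₊ : ℝ) := by exact_mod_cast hx
  have h1 : (m : ℝ) * ∑ u with u ∈ N1 D x.1, w u ≤
      ∑ u with u ∈ N1 D x.1, (⌈(m : ℝ) * w u⌉₊ : ℝ) := by
    rw [Finset.mul_sum]
    exact Finset.sum_le_sum fun u _ => Nat.le_ceil _
  have h2 : ∑ u with u ∈ N2 D x.1, (⌈(m : ℝ) * w u⌉₊ : ℝ) ≤
      (m : ℝ) * (∑ u with u ∈ N2 D x.1, w u) + Fintype.card V := by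
    calc ∑ u with u ∈ N2 D x.1, (⌈(m : ℝ) * w u⌉₊ : ℝ)
        ≤ ∑ u with u ∈ N2 D x.1, ((m : ℝ) * w u + 1) :=
          Finset.sum_le_sum fun u _ =>
            (Nat.ceil_lt_add_one (mul_nonneg hm0.le (hw u).le)).le
      _ = (m : ℝ) * (∑ u with u ∈ N2 D x.1, w u) +
          ((Finset.univ.filter (fun u => u ∈ N2 D x.1)).card : ℝ) := by
          rw [Finset.sum_add_distrib, Finset.mul_sum]; simp
      _ ≤ _ := by
          gcongr
          exact_mod_cast Finset.card_le_univ _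
  have h3 := hf x.1
  have h4 : (f x.1 : ℝ) ≤ m := by exact_mod_cast hmf x.1
  have h5 : 0 < ∑ u with u ∈ N1 D x.1, w u - ∑ u with u ∈ N2 D x.1, w u := by
    have := hcon x.1; linarith
  have h6 := mul_le_mul_of_nonneg_right h4 h5.le
  nlinarith

theorem seymour_of_weighted (H : Weighted) : Seymour := by
  classical
  intro V _ _ D hD
  obtain ⟨v, hv⟩ := H V D (fun _ => 1) hD (fun _ => one_pos)
  refine ⟨v, ?_⟩
  rw [ncard_eq, ncard_eq]
  exact_mod_cast hv

/-- A vertex of minimum outdegree with an out-neighbour none of whose out-neighbours is an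
out-neighbour of it satisfies the conjecture. -/
theorem sink_case {V : Type} [Fintype V] (D : V → V → Prop) (hD : Oriented D) (v u : V)
    (hmin : ∀ x, (N1 D v).ncard ≤ (N1 D x).ncard) (hu : u ∈ N1 D v)
    (hsink : N1 D u ∩ N1 D v = ∅) : (N1 D v).ncard ≤ (N2 D v).ncard := by
  refine (hmin u).trans (Set.ncard_le_ncard ?_ (Set.toFinite _))
  intro w hw
  refine ⟨?_, ?_, u, hu, hw⟩
  · rintro rfl
    exact hD _ _ hu hw
  · intro h
    have : w ∈ N1 D u ∩ N1 D v := ⟨hw, h⟩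
    rw [hsink] at this
    exact this

theorem result :
    (Seymour ↔ Additive) ∧ (Seymour ↔ Multiplicative) ∧ (Seymour ↔ Weighted) ∧
    (∀ (V : Type) [Fintype V] (D : V → V → Prop) (v u : V), Oriented D →
      (∀ x, (N1 D v).ncard ≤ (N1 D x).ncard) → u ∈ N1 D v → N1 D u ∩ N1 D v = ∅ →
      (N1 D v).ncard ≤ (N2 D v).ncard) := by
  refine ⟨⟨?_, seymour_of_additive⟩, ⟨?_, seymour_of_multiplicative⟩,
    ⟨weighted_of_seymour, seymour_of_weighted⟩,
    fun V _ D v u hD hmin hu hs => sink_case D hD v u hmin hu hs⟩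
  · intro H ε hε
    refine ⟨0, fun V _ _ D hD _ => ?_⟩
    obtain ⟨v, hv⟩ := H V D hD
    refine ⟨v, ?_⟩
    have h1 : ((N1 D v).ncard : ℝ) ≤ (N2 D v).ncard := by exact_mod_cast hv
    have h2 : 0 ≤ ε * (Fintype.card V : ℝ) := by positivity
    linarith
  · intro H l hl
    refine ⟨0, fun V _ _ D hD _ => ?_⟩
    obtain ⟨v, hv⟩ := H V D hD
    refine ⟨v, ?_⟩
    have h1 : ((N1 D v).ncard : ℝ) ≤ (N2 D v).ncard := by exact_mod_cast hv
    have h2 : (0 : ℝ) ≤ (N1 D v).ncard := Nat.cast_nonneg _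
    nlinarith

end Vale.Agent.Results.P038.Asymptotic
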