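import Vale.Agent.H14.P038.Biclique

/-!
# Seymour's second neighbourhood conjecture for biclique-free oriented graphs

Seymour's conjecture holds for every oriented graph in which, for some `s ≥ 1`, any `s` vertices
have fewer than `(δ⁺ - 2 s²) / 2^(s-1)` common out-neighbours.  So it holds for all orientations
of `K_{s,t}`-free graphs with `δ⁺ > 2^(s-1) (t-1) + 2 s²`.
-/

namespace Vale.Agent.Results.P038.BicliqueFree

open Finset

/-- An oriented graph on `V`: `A u v` means that `u → v` is an arc; there are no loops and no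
pairs of opposite arcs. -/
def IsOriented {V : Type*} (A : V → V → Prop) : Prop := ∀ u v, A u v → ¬ A v u

open Classical in
/-- `N₁⁺(v) = {u : v → u}`. -/
noncomputable def N1 {V : Type*} [Fintype V] (A : V → V → Prop) (v : V) : Finset V :=
  univ.filter fun u => A v u

open Classical in
/-- `N₂⁺(v) = {w ∉ {v} ∪ N₁⁺(v) : v → u → w for some u}`. -/
noncomputable def N2 {V : Type*} [Fintype V] (A : V → V → Prop) (v : V) : Finset V :=
  univ.filter fun w => w ≠ v ∧ ¬ A v w ∧ ∃ u, A v u ∧ A u w

open Classical in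
/-- The set of common out-neighbours of all the vertices of `X`. -/
noncomputable def common {V : Type*} [Fintype V] (A : V → V → Prop) (X : Finset V) : Finset V :=
  univ.filter fun w => ∀ x ∈ X, A x w

/-- `v` has minimum out-degree. -/
def IsMinOut {V : Type*} [Fintype V] (A : V → V → Prop) (v : V) : Prop :=
  ∀ u, (N1 A v).card ≤ (N1 A u).card

open Classical in
theorem local_biclique {V : Type*} [Fintype V] {A : V → V → Prop} (hA : IsOriented A)
    (s c : ℕ) (hs : 1 ≤ s) (v : V) (hdeg : ∀ x ∈ N1 A v, (N1 A v).card ≤ (N1 A x).card)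
    (hc : ∀ X ⊆ N1 A v, X.card = s → (common A X).card ≤ c)
    (hd : 2 ^ (s - 1) * c + 2 * s ^ 2 < (N1 A v).card) :
    (N1 A v).card ≤ (N2 A v).card := by
  obtain ⟨k, rfl⟩ : ∃ k, s = k + 1 := ⟨s - 1, by omega⟩
  exact Vale.Agent.H14.P038.biclique (A := A) hA v hdeg k c hc hd

open Classical in
theorem local_pairs {V : Type*} [Fintype V] {A : V → V → Prop} (hA : IsOriented A)
    (v : V) (hdeg : ∀ x ∈ N1 A v, (N1 A v).card ≤ (N1 A x).card)
    (hc : ∀ x ∈ N1 A v, ∀ y ∈ N1 A v, x ≠ y →
      2 * (common A {x, y}).card + 1 ≤ (N1 A v).card) :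
    (N1 A v).card ≤ (N2 A v).card := by
  refine Vale.Agent.H14.P038.Common.pairwise (A := A) hA v hdeg
    fun x hx y hy hxy => ?_
  have h := hc x hx y hy hxy
  have e : (common A {x, y}).card =
      Vale.Agent.H14.P038.Common.codeg A x y := by
    unfold common Vale.Agent.H14.P038.Common.codeg
    congr 1
    ext w
    simp
  rw [e] at h
  exact h

open Classical in
/-- **Seymour's second neighbourhood conjecture for biclique-free oriented graphs.**  Let `A` be
an oriented graph on a finite set `V`.

1. Let `s ≥ 1`.  If any `s` vertices have at most `c` common out-neighbours and the minimum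
   out-degree `δ⁺` satisfies `2^(s-1) c + 2 s² < δ⁺`, then every vertex `v` of minimum out-degree
   has `|N₁⁺(v)| ≤ |N₂⁺(v)|`.
2. The same at any vertex `v` whose out-neighbours have out-degree at least `|N₁⁺(v)|`, where only
   the sets `X ⊆ N₁⁺(v)` matter.
3. For `s = 2` a sharp version: it is enough that any two out-neighbours of `v` have at most
   `(|N₁⁺(v)| - 1) / 2` common out-neighbours.
4. If any two vertices have at most one common out-neighbour, then every vertex `v` of minimum
   out-degree has `|N₁⁺(v)| ≤ |N₂⁺(v)|`. -/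
theorem result {V : Type*} [Fintype V] (A : V → V → Prop) (hA : IsOriented A) :
    (∀ s c : ℕ, 1 ≤ s → (∀ X : Finset V, X.card = s → (common A X).card ≤ c) →
      ∀ v, IsMinOut A v → 2 ^ (s - 1) * c + 2 * s ^ 2 < (N1 A v).card →
      (N1 A v).card ≤ (N2 A v).card) ∧
    (∀ s c : ℕ, 1 ≤ s → ∀ v, (∀ x ∈ N1 A v, (N1 A v).card ≤ (N1 A x).card) →
      (∀ X ⊆ N1 A v, X.card = s → (common A X).card ≤ c) →
      2 ^ (s - 1) * c + 2 * s ^ 2 < (N1 A v).card →
      (N1 A v).card ≤ (N2 A v).card) ∧
    (∀ v, (∀ x ∈ N1 A v, (N1 A v).card ≤ (N1 A x).card) →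
      (∀ x ∈ N1 A v, ∀ y ∈ N1 A v, x ≠ y →
        2 * (common A {x, y}).card + 1 ≤ (N1 A v).card) →
      (N1 A v).card ≤ (N2 A v).card) ∧
    ((∀ x y : V, x ≠ y → (common A {x, y}).card ≤ 1) →
      ∀ v, IsMinOut A v → (N1 A v).card ≤ (N2 A v).card) := by
  refine ⟨fun s c hs hc v hv hd => ?_, fun s c hs v hdeg hc hd => ?_,
    fun v hdeg hc => local_pairs hA v hdeg hc, fun hc v hv => ?_⟩
  · exact local_biclique hA s c hs v (fun x _ => hv x) (fun X _ hX => hc X hX) hd
  · exact local_biclique hA s c hs v hdeg hc hd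
  · by_cases hd : (N1 A v).card ≤ 2
    · exact Vale.Agent.H14.P038.Common.small (A := A) hA v
        (fun x _ => hv x) hd
    · refine local_pairs hA v (fun x _ => hv x) fun x _ y _ hxy => ?_
      have := hc x y hxy
      omega

end Vale.Agent.Results.P038.BicliqueFree
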