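import Mathlib

namespace Vale.Agent.Results.P038.CliqueFree

open Finset

/-- `A` is the arc relation of an oriented graph. -/
def Oriented {V : Type} (A : V → V → Prop) : Prop := ∀ u v, A u v → ¬ A v u

/-- first out-neighbourhood -/
def N1 {V : Type} (A : V → V → Prop) (v : V) : Set V := {u | A v u}

/-- second out-neighbourhood -/
def N2 {V : Type} (A : V → V → Prop) (v : V) : Set V :=
  {w | w ≠ v ∧ ¬ A v w ∧ ∃ u, A v u ∧ A u w}

theorem key {V : Type} [Finite V] {A : V → V → Prop} (hA : Oriented A) {v u : V}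
    (hv : (N1 A v).ncard ≤ (N1 A u).ncard) (hu : A v u) :
    (N1 A v).ncard ≤ (N2 A v).ncard + (N1 A u ∩ N1 A v).ncard := by
  have hsub : N1 A u ⊆ N2 A v ∪ (N1 A u ∩ N1 A v) := by
    intro w hw
    by_cases h : A v w
    · exact Or.inr ⟨hw, h⟩
    · refine Or.inl ⟨?_, h, u, hu, hw⟩
      rintro rfl
      exact hA _ _ hu hw
  calc (N1 A v).ncard ≤ (N1 A u).ncard := hv
    _ ≤ (N2 A v ∪ (N1 A u ∩ N1 A v)).ncard := Set.ncard_le_ncard hsub (Set.toFinite _)
    _ ≤ _ := Set.ncard_union_le _ _

open Classical in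
theorem sum_out {S : Type} [Fintype S] (B : S → S → Prop) (hB : Oriented B) :
    2 * ∑ u, (univ.filter (fun w => B u w)).card =
      ∑ u, (univ.filter (fun w => (SimpleGraph.fromRel B).Adj u w)).card := by
  have h1 : ∀ u, (univ.filter (fun w => (SimpleGraph.fromRel B).Adj u w)).card =
      (univ.filter (fun w => B u w)).card + (univ.filter (fun w => B w u)).card := by
    intro u
    rw [← Finset.card_union_of_disjoint]
    · congr 1
      ext w
      simp only [SimpleGraph.fromRel_adj, Finset.mem_filter, Finset.mem_univ, true_and,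
        Finset.mem_union]
      constructor
      · exact fun h => h.2
      · intro h
        refine ⟨?_, h⟩
        rintro rfl
        rcases h with h | h <;> exact hB _ _ h h
    · rw [Finset.disjoint_left]
      intro w h1 h2
      rw [Finset.mem_filter] at h1 h2
      exact hB _ _ h1.2 h2.2
  simp_rw [h1]
  rw [Finset.sum_add_distrib, two_mul]
  congr 1
  simp_rw [Finset.card_filter]
  exact Finset.sum_comm

theorem exists_min {V : Type} [Finite V] [Nonempty V] (A : V → V → Prop) :
    ∃ v, ∀ u, (N1 A v).ncard ≤ (N1 A u).ncard := Finite.exists_min _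

open Classical in
theorem part3 {V : Type} [Fintype V] [Nonempty V] {A : V → V → Prop} (hA : Oriented A)
    (hd : ∀ u v, u ≠ v → A u v ∨ ∃ w, A u w ∧ A w v) :
    ∃ v, (N1 A v).ncard ≤ (N2 A v).ncard := by
  obtain ⟨v, hv⟩ := exists_min A
  refine ⟨v, ?_⟩
  have hcard : ∀ u, (N1 A u).ncard = (univ.filter (fun w => A u w)).card := by
    intro u
    rw [← Set.ncard_coe_finset]
    congr 1
    ext w
    simp [N1]
  have h1 := sum_out A hA
  have h2 : ∀ u, (univ.filter (fun w => (SimpleGraph.fromRel A).Adj u w)).card ≤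
      Fintype.card V - 1 := by
    intro u
    have : univ.filter (fun w => (SimpleGraph.fromRel A).Adj u w) ⊆ univ.erase u := by
      intro w hw
      rw [Finset.mem_filter] at hw
      exact Finset.mem_erase.2 ⟨hw.2.ne.symm, mem_univ _⟩
    calc _ ≤ (univ.erase u).card := Finset.card_le_card this
      _ = _ := by rw [Finset.card_erase_of_mem (mem_univ _), Finset.card_univ]
  have h3 : Fintype.card V * (2 * (N1 A v).ncard) ≤ Fintype.card V * (Fintype.card V - 1) := by
    calc Fintype.card V * (2 * (N1 A v).ncard) = 2 * ∑ _u : V, (N1 A v).ncard := by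
          rw [Finset.sum_const, Finset.card_univ, smul_eq_mul]; ring
      _ ≤ 2 * ∑ u, (univ.filter (fun w => A u w)).card := by
          apply Nat.mul_le_mul_left
          apply Finset.sum_le_sum
          intro u _
          rw [← hcard u]
          exact hv u
      _ = _ := h1
      _ ≤ ∑ _u : V, (Fintype.card V - 1) := Finset.sum_le_sum (fun u _ => h2 u)
      _ = _ := by rw [Finset.sum_const, Finset.card_univ, smul_eq_mul]
  have h4 : 2 * (N1 A v).ncard ≤ Fintype.card V - 1 :=
    Nat.le_of_mul_le_mul_left h3 Fintype.card_pos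
  have h5 : Fintype.card V ≤ 1 + ((N1 A v).ncard + (N2 A v).ncard) := by
    rw [← Nat.card_eq_fintype_card, ← Set.ncard_univ]
    have hsub : (Set.univ : Set V) ⊆ {v} ∪ (N1 A v ∪ N2 A v) := by
      intro w _
      by_cases h : w = v
      · exact Or.inl h
      · by_cases h' : A v w
        · exact Or.inr (Or.inl h')
        · refine Or.inr (Or.inr ⟨h, h', ?_⟩)
          exact (hd v w (Ne.symm h)).resolve_left h'
    calc _ ≤ ({v} ∪ (N1 A v ∪ N2 A v) : Set V).ncard :=
          Set.ncard_le_ncard hsub (Set.toFinite _)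
      _ ≤ ({v} : Set V).ncard + (N1 A v ∪ N2 A v).ncard := Set.ncard_union_le _ _
      _ ≤ _ := by
        rw [Set.ncard_singleton]
        exact Nat.add_le_add_left (Set.ncard_union_le _ _) 1
  omega

theorem cliqueFree_sub {V : Type} {A : V → V → Prop} (hA : Oriented A) (v : V) {k : ℕ}
    (hk : (SimpleGraph.fromRel A).CliqueFree (k + 2)) :
    (SimpleGraph.fromRel (fun x y : {u // A v u} => A x y)).CliqueFree (k + 1) := by
  classical
  intro s hs
  have h1 := hs.map (f := Function.Embedding.subtype (fun u => A v u))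
  have hle : (SimpleGraph.fromRel (fun x y : {u // A v u} => A x y)).map
      (Function.Embedding.subtype (fun u => A v u)) ≤ SimpleGraph.fromRel A := by
    intro a b hab
    rw [SimpleGraph.map_adj] at hab
    obtain ⟨x, y, hxy, rfl, rfl⟩ := hab
    rw [SimpleGraph.fromRel_adj] at hxy ⊢
    exact ⟨fun h => hxy.1 (Subtype.ext h), hxy.2⟩
  have h2 := h1.mono hle
  have h3 := h2.insert (a := v) (by
    intro b hb
    rw [Finset.mem_map] at hb
    obtain ⟨x, _, rfl⟩ := hb
    rw [SimpleGraph.fromRel_adj]
    refine ⟨?_, Or.inl x.2⟩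
    intro h
    have := x.2
    change v = (x : V) at h
    rw [← h] at this
    exact hA _ _ this this)
  exact hk _ h3

open Classical in
theorem part2 {V : Type} [Fintype V] [Nonempty V] {A : V → V → Prop} (hA : Oriented A) {k : ℕ}
    (hk1 : 1 ≤ k) (hk : (SimpleGraph.fromRel A).CliqueFree (k + 2)) :
    ∃ v, (k + 1) * (N1 A v).ncard ≤ 2 * k * (N2 A v).ncard := by
  obtain ⟨v, hv⟩ := exists_min A
  refine ⟨v, ?_⟩
  set d := (N1 A v).ncard with hd
  rcases Nat.eq_zero_or_pos d with h0 | h0
  · rw [h0]; simp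
  set S := {u // A v u} with hS
  have hSd : Fintype.card S = d := by
    rw [hd, ← Nat.card_eq_fintype_card]
    rfl
  have hne : Nonempty S := Fintype.card_pos_iff.1 (by omega)
  have hB : Oriented (fun x y : S => A x y) := fun x y h => hA _ _ h
  have hcf := cliqueFree_sub hA v hk
  have hT := hcf.card_edgeFinset_le
  have h1 := sum_out (fun x y : S => A x y) hB
  have h2 : ∑ u, (univ.filter (fun w =>
      (SimpleGraph.fromRel (fun x y : S => A x y)).Adj u w)).card =
      2 * (SimpleGraph.fromRel (fun x y : S => A x y)).edgeFinset.card := by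
    rw [← SimpleGraph.sum_degrees_eq_twice_card_edges]
    apply Finset.sum_congr rfl
    intro u _
    rw [← SimpleGraph.card_neighborFinset_eq_degree]
    congr 1
    ext w
    simp
  set out : S → ℕ := fun u => (univ.filter (fun w : S => A u w)).card with hout
  obtain ⟨u, hu⟩ := Finite.exists_min out
  have h3 : ∑ u, out u = (SimpleGraph.fromRel (fun x y : S => A x y)).edgeFinset.card := by
    have : 2 * ∑ u, out u =
        2 * (SimpleGraph.fromRel (fun x y : S => A x y)).edgeFinset.card := by
      exact h1.trans (by convert h2)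
    omega
  have h4 : d * out u ≤ (SimpleGraph.fromRel (fun x y : S => A x y)).edgeFinset.card := by
    rw [← h3, ← hSd]
    calc Fintype.card S * out u = ∑ _w : S, out u := by
          rw [Finset.sum_const, Finset.card_univ, smul_eq_mul]
      _ ≤ _ := Finset.sum_le_sum (fun w _ => hu w)
  have h5 : 2 * k * (SimpleGraph.fromRel (fun x y : S => A x y)).edgeFinset.card ≤
      (k - 1) * d ^ 2 := by
    have h6 := SimpleGraph.mul_card_edgeFinset_turanGraph_le (n := Fintype.card S) (r := k)
    rw [SimpleGraph.card_edgeFinset_turanGraph] at h6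
    rw [← hSd]
    exact le_trans (Nat.mul_le_mul_left _ hT) h6
  have h7 : 2 * k * out u ≤ (k - 1) * d := by
    have : d * (2 * k * out u) ≤ d * ((k - 1) * d) := by
      calc d * (2 * k * out u) = 2 * k * (d * out u) := by ring
        _ ≤ 2 * k * (SimpleGraph.fromRel (fun x y : S => A x y)).edgeFinset.card :=
            Nat.mul_le_mul_left _ h4
        _ ≤ (k - 1) * d ^ 2 := h5
        _ = d * ((k - 1) * d) := by ring
    exact Nat.le_of_mul_le_mul_left this h0
  have h8 : (N1 A u ∩ N1 A v).ncard = out u := by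
    have : N1 A u ∩ N1 A v = Subtype.val '' {w : S | A u w} := by
      ext w
      constructor
      · rintro ⟨a1, a2⟩
        exact ⟨⟨w, a2⟩, a1, rfl⟩
      · rintro ⟨x, a1, rfl⟩
        exact ⟨a1, x.2⟩
    rw [this, Set.ncard_image_of_injective _ Subtype.val_injective, hout]
    dsimp only
    rw [← Set.ncard_coe_finset]
    congr 1
    ext w
    simp
  have h9 := key hA (hv u) u.2
  rw [h8, ← hd] at h9
  obtain ⟨m, rfl⟩ : ∃ m, k = m + 1 := ⟨k - 1, by omega⟩
  rw [Nat.add_sub_cancel] at h7
  have h10 : 2 * (m + 1) * d ≤ 2 * (m + 1) * ((N2 A v).ncard + out u) :=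
    Nat.mul_le_mul_left _ h9
  nlinarith

theorem part1 {V : Type} [Fintype V] [Nonempty V] {A : V → V → Prop} (hA : Oriented A)
    (hs : ∀ v, (N1 A v).Nonempty → ∃ u ∈ N1 A v, ∀ w ∈ N1 A v, ¬ A u w) :
    ∃ v, (N1 A v).ncard ≤ (N2 A v).ncard := by
  obtain ⟨v, hv⟩ := exists_min A
  refine ⟨v, ?_⟩
  rcases (N1 A v).eq_empty_or_nonempty with h | h
  · rw [h]; simp
  · obtain ⟨u, hu, hw⟩ := hs v h
    have := key hA (hv u) hu
    have h0 : N1 A u ∩ N1 A v = ∅ := by
      ext w
      simp only [Set.mem_inter_iff, Set.mem_empty_iff_false, iff_false, not_and]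
      exact fun a b => hw w b a
    rw [h0] at this
    simpa using this

/-- Seymour's second neighbourhood conjecture: locally acyclic orientations, orientations of
clique-free graphs (with a constant), orientations of diameter at most two. -/
theorem result :
    (∀ (V : Type) [Fintype V] [Nonempty V] (A : V → V → Prop), Oriented A →
      (∀ v, (N1 A v).Nonempty → ∃ u ∈ N1 A v, ∀ w ∈ N1 A v, ¬ A u w) →
      ∃ v, (N1 A v).ncard ≤ (N2 A v).ncard) ∧
    (∀ (V : Type) [Fintype V] [Nonempty V] (A : V → V → Prop) (k : ℕ), Oriented A → 1 ≤ k →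
      (SimpleGraph.fromRel A).CliqueFree (k + 2) →
      ∃ v, (k + 1) * (N1 A v).ncard ≤ 2 * k * (N2 A v).ncard) ∧
    (∀ (V : Type) [Fintype V] [Nonempty V] (A : V → V → Prop), Oriented A →
      (∀ u v, u ≠ v → A u v ∨ ∃ w, A u w ∧ A w v) →
      ∃ v, (N1 A v).ncard ≤ (N2 A v).ncard) :=
  ⟨fun _ _ _ _ h1 h2 => part1 h1 h2, fun _ _ _ _ _ h1 h2 h3 => part2 h1 h2 h3,
    fun _ _ _ _ h1 h2 => part3 h1 h2⟩

end Vale.Agent.Results.P038.CliqueFree
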