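import Mathlib

/-!
P038 (Seymour's second neighbourhood conjecture): oriented graphs in which no vertex dominates a
triangle have a vertex with `|N₂⁺(v)| ≥ 0.84 |N₁⁺(v)|`.
-/

namespace Vale.Agent.Results.P038.NoDominatedTriangle

open Finset Classical

variable {V : Type} [Fintype V]

/-- `A` is the arc relation of an oriented graph: no loops, no pair of opposite arcs. -/
def Oriented (A : V → V → Prop) : Prop := ∀ u v, A u v → ¬ A v u

/-- adjacency in the underlying undirected graph -/
def Adj (A : V → V → Prop) (u v : V) : Prop := A u v ∨ A v u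

/-- no vertex `a` has three pairwise adjacent out-neighbours -/
def NoDom (A : V → V → Prop) : Prop :=
  ∀ a b c d, A a b → A a c → A a d → Adj A b c → Adj A b d → Adj A c d → False

/-- `N₁⁺(v)` -/
noncomputable def N1 (A : V → V → Prop) (v : V) : Finset V := univ.filter (fun u => A v u)

/-- `N₂⁺(v)` -/
noncomputable def N2 (A : V → V → Prop) (v : V) : Finset V :=
  univ.filter (fun w => w ≠ v ∧ ¬ A v w ∧ ∃ u, A v u ∧ A u w)

/-- indicator -/
noncomputable def ind (A : V → V → Prop) (x z : V) : ℝ := if A x z then 1 else 0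

theorem card_out (A : V → V → Prop) (S : Finset V) (x : V) :
    (#(S.filter (fun z => A x z)) : ℝ) = ∑ z ∈ S, ind A x z := by
  unfold ind; rw [sum_boole]

theorem card_in (A : V → V → Prop) (S : Finset V) (x : V) :
    (#(S.filter (fun z => A z x)) : ℝ) = ∑ z ∈ S, ind A z x := by
  unfold ind; rw [sum_boole]

theorem ind_nonneg (A : V → V → Prop) (x z : V) : 0 ≤ ind A x z := by
  unfold ind; split_ifs <;> norm_num

/-- Mantel's theorem for oriented graphs. -/
theorem mantel (A : V → V → Prop) (hA : Oriented A) (S : Finset V)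
    (hS : ∀ x ∈ S, ∀ y ∈ S, ∀ z ∈ S, Adj A x y → Adj A x z → Adj A y z → False) :
    4 * ∑ x ∈ S, ∑ z ∈ S, ind A x z ≤ (#S : ℝ) ^ 2 := by
  set e := ∑ x ∈ S, ∑ z ∈ S, ind A x z with he
  have he0 : 0 ≤ e := sum_nonneg fun x _ => sum_nonneg fun z _ => ind_nonneg A x z
  set d : V → ℝ := fun x => ∑ z ∈ S, (ind A x z + ind A z x) with hd
  have hsum : ∑ x ∈ S, d x = 2 * e := by
    simp only [hd, sum_add_distrib]
    rw [sum_comm (s := S) (t := S) (f := fun x z => ind A z x)]
    ring
  have harc : ∀ x ∈ S, ∀ z ∈ S, ind A x z * (d x + d z) ≤ ind A x z * #S := by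
    intro x hx z hz
    by_cases hxz : A x z
    · apply mul_le_mul_of_nonneg_left _ (ind_nonneg A x z)
      simp only [hd]
      rw [← sum_add_distrib]
      calc ∑ t ∈ S, (ind A x t + ind A t x + (ind A z t + ind A t z)) ≤ ∑ t ∈ S, (1 : ℝ) := by
            refine sum_le_sum fun t ht => ?_
            have h1 : ¬ (Adj A x t ∧ Adj A z t) := fun h =>
              hS x hx z hz t ht (Or.inl hxz) h.1 h.2
            have h2 := hA x t
            have h3 := hA z t
            unfold Adj at h1
            unfold ind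
            by_cases a1 : A x t <;> by_cases a2 : A t x <;> by_cases a3 : A z t <;>
              by_cases a4 : A t z <;> simp_all
        _ = #S := by simp
    · unfold ind; simp [hxz]
  have h2 : ∑ x ∈ S, d x ^ 2 ≤ #S * e := by
    have h3 : ∑ x ∈ S, ∑ z ∈ S, ind A x z * (d x + d z) = ∑ x ∈ S, d x ^ 2 := by
      simp only [mul_add, sum_add_distrib]
      rw [sum_comm (s := S) (t := S) (f := fun x z => ind A x z * d z), ← sum_add_distrib]
      refine sum_congr rfl fun x _ => ?_
      rw [← sum_mul, ← sum_mul, ← add_mul]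
      simp only [hd, sum_add_distrib]
      ring
    rw [← h3, he, mul_sum]
    refine sum_le_sum fun x hx => ?_
    rw [mul_sum]
    refine sum_le_sum fun z hz => ?_
    rw [mul_comm (#S : ℝ)]
    exact harc x hx z hz
  have h4 : (∑ x ∈ S, d x) ^ 2 ≤ #S * ∑ x ∈ S, d x ^ 2 := sq_sum_le_card_mul_sum_sq
  rw [hsum] at h4
  have hS0 : (0 : ℝ) ≤ #S := by positivity
  have h5 : (2 * e) ^ 2 ≤ #S * (#S * e) := h4.trans (mul_le_mul_of_nonneg_left h2 hS0)
  by_contra hcon
  push Not at hcon
  have he1 : 0 < e := by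
    by_contra h
    have : e = 0 := le_antisymm (not_lt.1 h) he0
    rw [this] at hcon
    nlinarith [sq_nonneg (#S : ℝ)]
  nlinarith

theorem final {δ a b y sI eX eB n2 : ℝ} (hδ : 0 < δ) (_ha : 0 ≤ a) (hb : 0 ≤ b)
    (h1 : 4 * eX ≤ δ ^ 2) (h2 : δ * a ≤ eX) (h4 : δ ≤ a + b) (hy : 100 * y < 84 * δ)
    (hby : b ≤ y) (h6 : δ ^ 2 - eX ≤ sI + (y - b) * δ) (h7 : 4 * eB ≤ b ^ 2)
    (h8 : a * b + sI ≤ n2 * b + eB) (h9 : 100 * n2 < 84 * (a + b)) : False := by
  have ha4 : 4 * a ≤ δ := by
    by_contra h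
    push Not at h
    nlinarith
  have hb1 : 3 * δ ≤ 4 * b := by linarith
  have h10 : n2 * b ≤ 84 / 100 * (a + b) * b := by nlinarith
  have h11 : a * b + (3 / 4 * δ ^ 2 - (y - b) * δ) ≤ 84 / 100 * (a + b) * b + b ^ 2 / 4 := by
    nlinarith
  have h12 : (δ - b) * b ≤ a * b := by nlinarith
  have h13 : y * δ < 84 / 100 * δ ^ 2 := by nlinarith
  have h14 : 0 ≤ (b - 3 / 4 * δ) * (84 / 100 * δ - b) := by
    apply mul_nonneg <;> linarith
  have h15 : b * δ ≤ 84 / 100 * δ ^ 2 := by nlinarith
  nlinarith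

/-- Every nonempty finite oriented graph in which no vertex dominates a triangle (in particular
every oriented graph whose underlying graph contains no `K₄`) has a vertex `v` with
`|N₂⁺(v)| ≥ 0.84 |N₁⁺(v)|`. -/
theorem result (V : Type) [Fintype V] [Nonempty V] (A : V → V → Prop) (hA : Oriented A)
    (hK : NoDom A) : ∃ v, 84 * #(N1 A v) ≤ 100 * #(N2 A v) := by
  by_contra hcon
  push Not at hcon
  obtain ⟨v, -, hv⟩ := exists_min_image (univ : Finset V) (fun v => #(N1 A v)) univ_nonempty
  set X := N1 A v with hX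
  set Y := N2 A v with hY
  have hδ0 : 0 < #X := by
    have h := hcon v
    by_contra h0
    have h1 : #(N1 A v) = 0 := by
      have : #X = 0 := by omega
      exact this
    rw [h1] at h
    exact absurd h (Nat.not_lt_zero _)
  have hXne : X.Nonempty := card_pos.1 hδ0
  have memX : ∀ x, x ∈ X ↔ A v x := fun x => by simp [hX, N1]
  have memY : ∀ x, x ∈ Y ↔ (x ≠ v ∧ ¬ A v x ∧ ∃ u, A v u ∧ A u x) := fun x => by simp [hY, N2]
  -- out-neighbours of members of `X`
  have hsplit : ∀ x ∈ X, #(N1 A x) = #(X.filter (fun z => A x z)) + #(Y.filter (fun z => A x z)) := by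
    intro x hx
    rw [← card_union_of_disjoint]
    · congr 1
      ext z
      simp only [N1, mem_filter, mem_univ, true_and, mem_union, memX, memY]
      constructor
      · intro hz
        by_cases h : A v z
        · exact Or.inl ⟨h, hz⟩
        · refine Or.inr ⟨⟨?_, h, x, (memX x).1 hx, hz⟩, hz⟩
          rintro rfl
          exact hA _ _ ((memX x).1 hx) hz
      · rintro (h | h) <;> exact h.2
    · rw [disjoint_left]
      intro z hz hz'
      rw [mem_filter, memX] at hz
      rw [mem_filter, memY] at hz'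
      exact hz'.1.2.1 hz.1
  have hXtri : ∀ x ∈ X, ∀ y ∈ X, ∀ z ∈ X, Adj A x y → Adj A x z → Adj A y z → False := by
    intro x hx y hy z hz h1 h2 h3
    exact hK v x y z ((memX x).1 hx) ((memX y).1 hy) ((memX z).1 hz) h1 h2 h3
  obtain ⟨w, hwX, hw⟩ := exists_min_image X (fun x => #(X.filter (fun z => A x z))) hXne
  set B := Y.filter (fun z => A w z) with hB
  set AA := X.filter (fun z => A w z) with hAA
  have hBtri : ∀ x ∈ B, ∀ y ∈ B, ∀ z ∈ B, Adj A x y → Adj A x z → Adj A y z → False := by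
    intro x hx y hy z hz h1 h2 h3
    exact hK w x y z (mem_filter.1 hx).2 (mem_filter.1 hy).2 (mem_filter.1 hz).2 h1 h2 h3
  -- the second neighbourhood of `w` inside `X`
  obtain ⟨A', hA'X, hA'c, hA'2⟩ : ∃ A' ⊆ X, #AA ≤ #A' ∧ A' ⊆ N2 A w := by
    rcases AA.eq_empty_or_nonempty with h | ⟨x, hx⟩
    · exact ⟨∅, empty_subset _, by rw [h], empty_subset _⟩
    · rw [hAA, mem_filter] at hx
      refine ⟨X.filter (fun z => A x z), filter_subset _ _, hw x hx.1, ?_⟩
      intro z hz
      rw [mem_filter] at hz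
      simp only [N2, mem_filter, mem_univ, true_and]
      refine ⟨?_, ?_, x, hx.2, hz.2⟩
      · rintro rfl
        exact hA _ _ hx.2 hz.2
      · intro hwz
        exact hXtri w hwX x hx.1 z hz.1 (Or.inl hx.2) (Or.inl hwz) (Or.inl hz.2)
  have hkey : ∀ u ∈ B, #AA + #(X.filter (fun x => A x u)) ≤
      #(N2 A w) + #(B.filter (fun z => A u z)) := by
    intro u hu
    rw [hB, mem_filter] at hu
    set Z := ((N1 A u) \ X) \ B with hZ
    have hZ2 : Z ⊆ N2 A w := by
      intro z hz
      rw [hZ, mem_sdiff, mem_sdiff] at hz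
      have huz : A u z := by simpa [N1] using hz.1.1
      simp only [N2, mem_filter, mem_univ, true_and]
      refine ⟨?_, ?_, u, hu.2, huz⟩
      · rintro rfl
        exact hA _ _ hu.2 huz
      · intro hwz
        apply hz.2
        rw [hB, mem_filter]
        refine ⟨?_, hwz⟩
        rw [memY]
        refine ⟨?_, fun h => hz.1.2 ((memX z).2 h), w, (memX w).1 hwX, hwz⟩
        rintro rfl
        exact hA _ _ ((memX w).1 hwX) hwz
    have hdis : Disjoint A' Z := by
      rw [disjoint_left]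
      intro z hz hz'
      rw [hZ, mem_sdiff, mem_sdiff] at hz'
      exact hz'.1.2 (hA'X hz)
    have h1 : #A' + #Z ≤ #(N2 A w) := by
      rw [← card_union_of_disjoint hdis]
      exact card_le_card (union_subset hA'2 hZ2)
    have h2 : #(N1 A u) ≤ #Z + #(X.filter (fun x => A u x)) + #(B.filter (fun z => A u z)) := by
      have : N1 A u ⊆ (Z ∪ X.filter (fun x => A u x)) ∪ B.filter (fun z => A u z) := by
        intro z hz
        have huz : A u z := by simpa [N1] using hz
        by_cases hzX : z ∈ X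
        · exact mem_union_left _ (mem_union_right _ (mem_filter.2 ⟨hzX, huz⟩))
        · by_cases hzB : z ∈ B
          · exact mem_union_right _ (mem_filter.2 ⟨hzB, huz⟩)
          · exact mem_union_left _ (mem_union_left _ (by
              rw [hZ, mem_sdiff, mem_sdiff]; exact ⟨⟨hz, hzX⟩, hzB⟩))
      exact (card_le_card this).trans ((card_union_le _ _).trans
        (Nat.add_le_add_right (card_union_le _ _) _))
    have h3 : #(X.filter (fun x => A u x)) + #(X.filter (fun x => A x u)) ≤ #X := by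
      rw [← card_union_of_disjoint]
      · exact card_le_card (union_subset (filter_subset _ _) (filter_subset _ _))
      · rw [disjoint_left]
        intro z hz hz'
        exact hA _ _ (mem_filter.1 hz).2 (mem_filter.1 hz').2
    have h4 : #X ≤ #(N1 A u) := hv u (mem_univ u)
    omega
  -- pass to real numbers
  have hwN : #(N1 A w) = #AA + #B := hsplit w hwX
  have r1 := mantel A hA X hXtri
  have r7 := mantel A hA B hBtri
  have r2 : (#X : ℝ) * #AA ≤ ∑ x ∈ X, ∑ z ∈ X, ind A x z := by
    have : ∑ x ∈ X, (#AA : ℝ) ≤ ∑ x ∈ X, ∑ z ∈ X, ind A x z := by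
      refine sum_le_sum fun x hx => ?_
      rw [← card_out]
      exact_mod_cast hw x hx
    simpa using this
  have r6 : (#X : ℝ) ^ 2 - ∑ x ∈ X, ∑ z ∈ X, ind A x z ≤
      ∑ u ∈ B, ∑ x ∈ X, ind A x u + ((#Y : ℝ) - #B) * #X := by
    have s1 : (#X : ℝ) ^ 2 ≤ ∑ x ∈ X, ∑ z ∈ X, ind A x z + ∑ x ∈ X, ∑ z ∈ Y, ind A x z := by
      rw [← sum_add_distrib]
      have : ∑ x ∈ X, (#X : ℝ) ≤ ∑ x ∈ X, (∑ z ∈ X, ind A x z + ∑ z ∈ Y, ind A x z) := by
        refine sum_le_sum fun x hx => ?_
        rw [← card_out, ← card_out]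
        have h1 := hsplit x hx
        have h2 : #X ≤ #(N1 A x) := hv x (mem_univ x)
        rw [h1] at h2
        exact_mod_cast h2
      rw [sq]
      simpa using this
    have s2 : ∑ x ∈ X, ∑ z ∈ Y, ind A x z = ∑ u ∈ B, ∑ x ∈ X, ind A x u +
        ∑ u ∈ Y \ B, ∑ x ∈ X, ind A x u := by
      rw [sum_comm, ← sum_sdiff (filter_subset (fun z => A w z) Y), add_comm]
    have s3 : ∑ u ∈ Y \ B, ∑ x ∈ X, ind A x u ≤ ((#Y : ℝ) - #B) * #X := by
      have h1 : (#(Y \ B) : ℝ) = (#Y : ℝ) - #B := by
        rw [card_sdiff_of_subset (filter_subset _ _), Nat.cast_sub (card_le_card (filter_subset _ _))]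
      rw [← h1]
      have : ∑ u ∈ Y \ B, ∑ x ∈ X, ind A x u ≤ ∑ u ∈ Y \ B, (#X : ℝ) := by
        refine sum_le_sum fun u _ => ?_
        rw [← card_in]
        exact_mod_cast card_le_card (filter_subset _ _)
      simpa using this
    linarith
  have r8 : (#AA : ℝ) * #B + ∑ u ∈ B, ∑ x ∈ X, ind A x u ≤
      (#(N2 A w) : ℝ) * #B + ∑ u ∈ B, ∑ z ∈ B, ind A u z := by
    have : ∑ u ∈ B, ((#AA : ℝ) + ∑ x ∈ X, ind A x u) ≤
        ∑ u ∈ B, ((#(N2 A w) : ℝ) + ∑ z ∈ B, ind A u z) := by
      refine sum_le_sum fun u hu => ?_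
      rw [← card_in, ← card_out]
      exact_mod_cast hkey u hu
    rw [sum_add_distrib, sum_add_distrib, sum_const, sum_const, nsmul_eq_mul, nsmul_eq_mul] at this
    linarith
  have c1 : (100 : ℝ) * #Y < 84 * #X := by exact_mod_cast hcon v
  have c2 : (100 : ℝ) * #(N2 A w) < 84 * ((#AA : ℝ) + #B) := by
    have := hcon w
    rw [hwN] at this
    exact_mod_cast this
  have c3 : (#X : ℝ) ≤ (#AA : ℝ) + #B := by
    have : #X ≤ #(N1 A w) := hv w (mem_univ w)
    rw [hwN] at this
    exact_mod_cast this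
  have c4 : (#B : ℝ) ≤ #Y := by exact_mod_cast card_le_card (filter_subset _ _)
  exact final (by exact_mod_cast hδ0) (by positivity) (by positivity) r1 r2 c3 c1 c4 r6 r7 r8 c2

end Vale.Agent.Results.P038.NoDominatedTriangle
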